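import Vale.Agent.P043.Defs
import Vale.Agent.P043.Eu.Defs
import Vale.Agent.P043.T2.Final

open MeasureTheory in
/-- The periodic tiling conjecture fails in `ℤ^d` for every `d ≥ 3` and in `ℝ^d` for every
`d ≥ 2`. -/
theorem Vale.Agent.Results.P043.PlaneTiles.result :
    (∀ d : ℕ, 3 ≤ d →
      ∃ F : Finset (Fin d → ℤ), F.Nonempty ∧
        (∃ A : Set (Fin d → ℤ), Vale.Agent.P043.IsTiling A F) ∧
        ∀ A : Set (Fin d → ℤ), Vale.Agent.P043.IsTiling A F → ¬ Vale.Agent.P043.IsPeriodic A) ∧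
    ∀ d : ℕ, 2 ≤ d →
      ∃ Om : Set (Fin d → ℝ), Bornology.IsBounded Om ∧ MeasurableSet Om ∧ 0 < volume Om ∧
        (∃ A : Set (Fin d → ℝ), Vale.Agent.P043.Eu.TilesAE Om A) ∧
        ∀ A : Set (Fin d → ℝ), Vale.Agent.P043.Eu.TilesAE Om A →
          ¬ Vale.Agent.P043.Eu.LatticePeriodic A :=
  Vale.Agent.P043.T2.full Vale.Agent.P043.T2.fin_plane
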